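import Mathlib

/-!
# P127 (Kakeya): Kakeya sets whose unit segments lie on lines through countably many points

If `K ⊆ ℝⁿ` contains, for every direction `e`, a unit segment `a + [0,1] e` whose supporting line
passes through a point of a fixed countable set `P`, then `K` has Hausdorff dimension `n` and is
not Lebesgue-null.
-/

namespace Vale.Agent.Results.P127.ConcurrentKakeya

open Set MeasureTheory Module

theorem cover (n : ℕ) (K P : Set (EuclideanSpace ℝ (Fin n)))
    (hK : ∀ e : EuclideanSpace ℝ (Fin n), ‖e‖ = 1 →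
      ∃ a : EuclideanSpace ℝ (Fin n), (∀ t : ℝ, 0 ≤ t → t ≤ 1 → a + t • e ∈ K) ∧
        ∃ p ∈ P, ∃ s : ℝ, a + s • e = p) :
    (univ : Set (EuclideanSpace ℝ (Fin n))) ⊆
      {0} ∪ ⋃ p ∈ P, ⋃ q : {q : ℚ // q ≠ 0},
        (fun x : EuclideanSpace ℝ (Fin n) => p + ((q : ℚ) : ℝ) • x) ⁻¹' K := by
  intro x _
  by_cases hx : x = 0
  · left; exact hx
  right
  have hρ : 0 < ‖x‖ := norm_pos_iff.mpr hx
  obtain ⟨ρ, hρdef⟩ : ∃ ρ : ℝ, ρ = ‖x‖ := ⟨_, rfl⟩
  rw [← hρdef] at hρ
  obtain ⟨e, hedef⟩ : ∃ e : EuclideanSpace ℝ (Fin n), e = ρ⁻¹ • x := ⟨_, rfl⟩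
  have he : ‖e‖ = 1 := by
    rw [hedef, norm_smul, norm_inv, Real.norm_eq_abs, abs_of_pos hρ, ← hρdef]
    exact inv_mul_cancel₀ hρ.ne'
  have hxe : x = ρ • e := by
    rw [hedef, smul_smul, mul_inv_cancel₀ hρ.ne', one_smul]
  obtain ⟨a, ha, p, hp, s, hs⟩ := hK e he
  -- find a nonzero rational q with ρ * q ∈ [-s, 1 - s]
  have key : ∃ q : ℚ, q ≠ 0 ∧ -s ≤ ρ * (q : ℝ) ∧ ρ * (q : ℝ) ≤ 1 - s := by
    by_cases h1 : s < 1
    · have hlt : max (-s) 0 / ρ < (1 - s) / ρ := by
        apply div_lt_div_of_pos_right _ hρ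
        rcases le_total (-s) 0 with h | h
        · rw [max_eq_right h]; linarith
        · rw [max_eq_left h]; linarith
      obtain ⟨q, hq1, hq2⟩ := exists_rat_btwn hlt
      have hqpos : (0 : ℝ) < q := by
        have : 0 ≤ max (-s) 0 / ρ := div_nonneg (le_max_right _ _) hρ.le
        linarith
      refine ⟨q, ?_, ?_, ?_⟩
      · intro h0; rw [h0] at hqpos; simp at hqpos
      · have : max (-s) 0 < ρ * q := by
          have := (div_lt_iff₀ hρ).mp hq1
          linarith
        have h2 : -s ≤ max (-s) 0 := le_max_left _ _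
        linarith
      · have := (lt_div_iff₀ hρ).mp hq2
        linarith
    · have h1 : 1 ≤ s := not_lt.mp h1
      have hlt : (-s) / ρ < (1 - s) / ρ := by
        apply div_lt_div_of_pos_right _ hρ
        linarith
      obtain ⟨q, hq1, hq2⟩ := exists_rat_btwn hlt
      have hqneg : (q : ℝ) < 0 := by
        have : (1 - s) / ρ ≤ 0 := div_nonpos_of_nonpos_of_nonneg (by linarith) hρ.le
        linarith
      refine ⟨q, ?_, ?_, ?_⟩
      · intro h0; rw [h0] at hqneg; simp at hqneg
      · have := (div_lt_iff₀ hρ).mp hq1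
        linarith
      · have := (lt_div_iff₀ hρ).mp hq2
        linarith
  obtain ⟨q, hq0, hq1, hq2⟩ := key
  refine mem_iUnion₂.mpr ⟨p, hp, mem_iUnion.mpr ⟨⟨q, hq0⟩, ?_⟩⟩
  show p + ((q : ℚ) : ℝ) • x ∈ K
  have hmem := ha (ρ * (q : ℝ) + s) (by linarith) (by linarith)
  have : p + ((q : ℚ) : ℝ) • x = a + (ρ * (q : ℝ) + s) • e := by
    rw [← hs, hxe, add_smul, smul_smul, mul_comm (q : ℝ) ρ]
    abel
  rw [this]
  exact hmem

/-- **Kakeya sets with segments on lines through countably many points.**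
Let `1 ≤ n` and let `K ⊆ ℝⁿ` be such that for every unit vector `e` there is a unit segment
`{a + t e : 0 ≤ t ≤ 1} ⊆ K` whose supporting line `{a + s e : s ∈ ℝ}` passes through a point of a
fixed countable set `P`.  Then `K` has Hausdorff dimension `n`, and `K` is not Lebesgue-null. -/
theorem result (n : ℕ) (hn : 1 ≤ n) (K P : Set (EuclideanSpace ℝ (Fin n))) (hP : P.Countable)
    (hK : ∀ e : EuclideanSpace ℝ (Fin n), ‖e‖ = 1 →
      ∃ a : EuclideanSpace ℝ (Fin n), (∀ t : ℝ, 0 ≤ t → t ≤ 1 → a + t • e ∈ K) ∧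
        ∃ p ∈ P, ∃ s : ℝ, a + s • e = p) :
    dimH K = n ∧ volume K ≠ 0 := by
  have hcov := cover n K P hK
  have hfin : finrank ℝ (EuclideanSpace ℝ (Fin n)) = n := by simp
  constructor
  · apply le_antisymm
    · calc dimH K ≤ dimH (univ : Set (EuclideanSpace ℝ (Fin n))) := dimH_mono (subset_univ K)
        _ = n := by rw [Real.dimH_univ_eq_finrank, hfin]
    · have h1 : dimH (univ : Set (EuclideanSpace ℝ (Fin n))) ≤ dimH K := by
        refine (dimH_mono hcov).trans ?_
        rw [dimH_union, dimH_singleton, dimH_bUnion hP]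
        apply max_le bot_le
        apply iSup₂_le
        intro p _
        rw [dimH_iUnion]
        apply iSup_le
        rintro ⟨q, hq⟩
        have hqr : ((q : ℚ) : ℝ) ≠ 0 := by exact_mod_cast hq
        have hanti : AntilipschitzWith ‖((q : ℚ) : ℝ)‖₊⁻¹
            (fun x : EuclideanSpace ℝ (Fin n) => p + ((q : ℚ) : ℝ) • x) := by
          apply AntilipschitzWith.of_le_mul_dist
          intro x y
          rw [dist_add_left, dist_smul₀]
          rw [NNReal.coe_inv, coe_nnnorm, ← mul_assoc, inv_mul_cancel₀ (norm_ne_zero_iff.mpr hqr),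
            one_mul]
        exact hanti.dimH_preimage_le K
      rw [Real.dimH_univ_eq_finrank, hfin] at h1
      exact h1
  · intro h0
    have hzero : volume (({0} : Set (EuclideanSpace ℝ (Fin n))) ∪ ⋃ p ∈ P, ⋃ q : {q : ℚ // q ≠ 0},
        (fun x : EuclideanSpace ℝ (Fin n) => p + ((q : ℚ) : ℝ) • x) ⁻¹' K) = 0 := by
      rw [measure_union_null_iff]
      constructor
      · have hnt : Nontrivial (EuclideanSpace ℝ (Fin n)) := by
          apply Module.nontrivial_of_finrank_pos (R := ℝ)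
          rw [hfin]; omega
        exact measure_singleton _
      · rw [measure_biUnion_null_iff hP]
        intro p _
        rw [measure_iUnion_null_iff]
        rintro ⟨q, hq⟩
        have hqr : ((q : ℚ) : ℝ) ≠ 0 := by exact_mod_cast hq
        have hpre : (fun x : EuclideanSpace ℝ (Fin n) => p + ((q : ℚ) : ℝ) • x) ⁻¹' K
            = (fun x : EuclideanSpace ℝ (Fin n) => ((q : ℚ) : ℝ) • x) ⁻¹' ((fun y => p + y) ⁻¹' K) := rfl
        rw [hpre, Measure.addHaar_preimage_smul volume hqr, measure_preimage_add, h0, mul_zero]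
    have huniv : volume (univ : Set (EuclideanSpace ℝ (Fin n))) = 0 :=
      measure_mono_null hcov hzero
    have hvol : (volume : Measure (EuclideanSpace ℝ (Fin n))) = 0 :=
      Measure.measure_univ_eq_zero.mp huniv
    have hball : volume (Metric.ball (0 : EuclideanSpace ℝ (Fin n)) 1) ≠ 0 :=
      (Metric.measure_ball_pos volume _ one_pos).ne'
    rw [hvol] at hball
    simp at hball

end Vale.Agent.Results.P127.ConcurrentKakeya
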